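import Vale.Agent.Lib.P143.Defs
import Vale.Agent.Lib.P143.Final

open MeasureTheory

universe u

/-- The free uniform spanning forest of every Cayley graph of a finitely generated group is a factor
of IID, equivariantly for the left multiplication action. -/
theorem Vale.Agent.Results.P143.CayleyFactor.result (Γ : Type u) [Group Γ] (S : Finset Γ)
    (hS : Subgroup.closure (S : Set Γ) = ⊤) :
    ∃ Φ : (Γ → unitInterval) → Sym2 Γ → Bool,
      Measurable Φ ∧
      (∀ U e, Φ U e = true → e ∈ (SimpleGraph.mulCayley (S : Set Γ)).edgeSet) ∧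
      (∀ (γ : Γ) (U : Γ → unitInterval) (e : Sym2 Γ),
        Φ (fun g => U (γ⁻¹ * g)) (Sym2.map (fun g => γ * g) e) = Φ U e) ∧
      Vale.Agent.Lib.P143.IsFUSF (SimpleGraph.mulCayley (S : Set Γ))
        ((Measure.infinitePi fun _ : Γ => (volume : Measure unitInterval)).map
          fun U (e : (SimpleGraph.mulCayley (S : Set Γ)).edgeSet) => Φ U e) :=
  Vale.Agent.Lib.P143.cayley_factor Γ S hS
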