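import Vale.Agent.Lib.P143.Defs
import Vale.Agent.Lib.P143.Final

open MeasureTheory

universe u

/-- The free uniform spanning forest is a factor of IID on every Cayley graph, equivariantly for left
multiplication, and a graph factor of IID: one measurable isomorphism invariant rule gives it on
every connected locally finite graph on the natural numbers. -/
theorem Vale.Agent.Results.P143.FUSFFactor.result :
    (∀ (Γ : Type u) [Group Γ] (S : Finset Γ), Subgroup.closure (S : Set Γ) = ⊤ →
      ∃ Φ : (Γ → unitInterval) → Sym2 Γ → Bool,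
        Measurable Φ ∧
        (∀ U e, Φ U e = true → e ∈ (SimpleGraph.mulCayley (S : Set Γ)).edgeSet) ∧
        (∀ (γ : Γ) (U : Γ → unitInterval) (e : Sym2 Γ),
          Φ (fun g => U (γ⁻¹ * g)) (Sym2.map (fun g => γ * g) e) = Φ U e) ∧
        Vale.Agent.Lib.P143.IsFUSF (SimpleGraph.mulCayley (S : Set Γ))
          ((Measure.infinitePi fun _ : Γ => (volume : Measure unitInterval)).map
            fun U (e : (SimpleGraph.mulCayley (S : Set Γ)).edgeSet) => Φ U e)) ∧
    (∃ Ψ : (ℕ → ℕ → Prop) × (ℕ → unitInterval) → Sym2 ℕ → Bool,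
      Measurable Ψ ∧
      (∀ (G : SimpleGraph ℕ) U e, Ψ (G.Adj, U) e = true → e ∈ G.edgeSet) ∧
      (∀ (π : ℕ ≃ ℕ) (G G' : SimpleGraph ℕ), (∀ a b, G'.Adj (π a) (π b) ↔ G.Adj a b) →
        ∀ (U : ℕ → unitInterval) (e : Sym2 ℕ),
          Ψ (G'.Adj, fun v => U (π.symm v)) (Sym2.map π e) = Ψ (G.Adj, U) e) ∧
      ∀ G : SimpleGraph ℕ, G.Connected → (∀ v, (G.neighborSet v).Finite) →
        Vale.Agent.Lib.P143.IsFUSF G
          ((Measure.infinitePi fun _ : ℕ => (volume : Measure unitInterval)).map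
            fun U (e : G.edgeSet) => Ψ (G.Adj, U) e)) :=
  ⟨fun Γ _ S hS => Vale.Agent.Lib.P143.cayley_factor Γ S hS, Vale.Agent.Lib.P143.graph_factor⟩
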