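import Vale.Agent.Lib.P143.URG
import Vale.Agent.Lib.P143.CayleyG

open MeasureTheory Filter Topology
open Vale.Agent.Lib.P143
open Classical

namespace Vale.Agent.Results.P143.FullAnswer

/-- The free uniform spanning forest is a factor of iid on every Cayley graph, and there is one
Borel function of a vertex labelled graph, natural for isomorphisms, whose image of iid labels has the
law of the free uniform spanning forest on every connected locally finite graph. -/
theorem result.{u} :
    (∀ (Γ : Type u) [Group Γ] (S : Set Γ), S.Finite → Subgroup.closure S = ⊤ →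
      ∃ Φ : (Γ → unitInterval) → Set (Sym2 Γ),
        (∀ e, MeasurableSet {U | e ∈ Φ U}) ∧
        (∀ U, Φ U ⊆ (SimpleGraph.mulCayley S).edgeSet) ∧
        (∀ (γ : Γ) (U : Γ → unitInterval), Φ (fun v => U (γ⁻¹ * v)) = Sym2.map (γ * ·) '' Φ U) ∧
        (∃ Gn, IsExhaustion (SimpleGraph.mulCayley S) Gn) ∧
        IsFUSF (SimpleGraph.mulCayley S)
          ((Measure.infinitePi fun _ : Γ => (volume : Measure unitInterval)).map
            fun U (e : (SimpleGraph.mulCayley S).edgeSet) => decide ((e : Sym2 Γ) ∈ Φ U))) ∧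
    (∃ Φ : SimpleGraph ℕ → (ℕ → unitInterval) → Set (Sym2 ℕ),
      (∀ e, MeasurableSet[(adjSigma ℕ).prod MeasurableSpace.pi]
        {p : SimpleGraph ℕ × (ℕ → unitInterval) | e ∈ Φ p.1 p.2}) ∧
      (∀ G U, Φ G U ⊆ G.edgeSet) ∧
      (∀ (π : Equiv.Perm ℕ) (G G' : SimpleGraph ℕ), (∀ a b, G'.Adj (π a) (π b) ↔ G.Adj a b) →
        ∀ U : ℕ → unitInterval, Φ G' (fun v => U (π.symm v)) = Sym2.map π '' Φ G U) ∧
      ∀ G : SimpleGraph ℕ, (∀ v, (G.neighborSet v).Finite) → G.Connected →
        (∃ Gn, IsExhaustion G Gn) ∧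
        IsFUSF G ((Measure.infinitePi fun _ : ℕ => (volume : Measure unitInterval)).map
          fun U (e : G.edgeSet) => decide ((e : Sym2 ℕ) ∈ Φ G U))) := by
  obtain ⟨L⟩ := exists_labNoise
  refine ⟨?_, ?_⟩
  · intro Γ _ S hfin hS
    have hcount : Countable Γ := cayley_countable S hfin hS
    set G := SimpleGraph.mulCayley S with hGdef
    have hconn : G.Connected := cayley_connected S hS
    have hlf : ∀ v, (G.neighborSet v).Finite := cayley_locallyFinite S hfin
    refine ⟨phiSet L G, fun e => ?_, phiSet_subset L G, fun γ U => ?_, exists_exhaustion hconn,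
      isFUSF_phiSet L hlf hconn⟩
    · exact measurableSet_phiSet_joint L (fun _ : Γ → unitInterval => G)
        (fun a b => MeasurableSet.const _) (U := fun U => U) (fun v => measurable_pi_apply v) e
    · exact phiSet_natural L G G (Equiv.mulLeft γ) (fun a b => cayley_adj_mul S γ a b) U
  · refine ⟨phiSet L, fun e => ?_, phiSet_subset L, fun π G G' hπ U => ?_, fun G hlf hconn =>
      ⟨exists_exhaustion hconn, isFUSF_phiSet L hlf hconn⟩⟩
    · let _ : MeasurableSpace (SimpleGraph ℕ) := adjSigma ℕ
      have hadj : ∀ a b : ℕ, MeasurableSet {G : SimpleGraph ℕ | G.Adj a b} := by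
        intro a b
        have h1 : MeasurableSpace.comap (fun G : SimpleGraph ℕ => G.Adj a b) ⊤ ≤ adjSigma ℕ :=
          le_iSup₂_of_le a b le_rfl
        exact h1 _ ⟨{True}, trivial, by ext G; simp⟩
      exact measurableSet_phiSet_joint L (fun p : SimpleGraph ℕ × (ℕ → unitInterval) => p.1)
        (fun a b => measurable_fst (hadj a b)) (U := fun p => p.2)
        (fun v => (measurable_pi_apply v).comp measurable_snd) e
    · exact phiSet_natural L G G' π hπ U

end Vale.Agent.Results.P143.FullAnswer
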