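import Vale.Agent.Lib.P143.Defs
import Vale.Agent.Lib.P143.Final

open MeasureTheory

/-- A single measurable isomorphism invariant rule, in the graph and the vertex labels jointly, whose
output on IID labels has the law of the free uniform spanning forest on every connected locally
finite graph on the natural numbers. -/
theorem Vale.Agent.Results.P143.GraphFactor.result :
    ∃ Ψ : (ℕ → ℕ → Prop) × (ℕ → unitInterval) → Sym2 ℕ → Bool,
      Measurable Ψ ∧
      (∀ (G : SimpleGraph ℕ) U e, Ψ (G.Adj, U) e = true → e ∈ G.edgeSet) ∧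
      (∀ (π : ℕ ≃ ℕ) (G G' : SimpleGraph ℕ), (∀ a b, G'.Adj (π a) (π b) ↔ G.Adj a b) →
        ∀ (U : ℕ → unitInterval) (e : Sym2 ℕ),
          Ψ (G'.Adj, fun v => U (π.symm v)) (Sym2.map π e) = Ψ (G.Adj, U) e) ∧
      ∀ G : SimpleGraph ℕ, G.Connected → (∀ v, (G.neighborSet v).Finite) →
        Vale.Agent.Lib.P143.IsFUSF G
          ((Measure.infinitePi fun _ : ℕ => (volume : Measure unitInterval)).map
            fun U (e : G.edgeSet) => Ψ (G.Adj, U) e) :=
  Vale.Agent.Lib.P143.graph_factor
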